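import Mathlib
open Set

namespace Vale.Agent.Lib.P068

variable {α : Type*} {M N : Matroid α} {J K R I I₀ G : Set α} {x y e : α}

lemma mem_closure_sdiff_of_forall (hJ : M.Indep J) (he : e ∈ M.closure J) {T : Set α}
    (hT : ∀ y ∈ T, e ∈ M.closure (J \ {y})) : e ∈ M.closure (J \ T) := by
  rcases T.eq_empty_or_nonempty with rfl | hne
  · simpa using he
  have h1 : J \ T = ⋂ y ∈ T, J \ {y} := by
    ext z
    simp only [mem_sdiff, mem_iInter, mem_singleton_iff]
    constructor
    · rintro ⟨hz, hzT⟩ y hy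
      exact ⟨hz, fun h => hzT (h ▸ hy)⟩
    · intro h
      obtain ⟨y0, hy0⟩ := hne
      exact ⟨(h y0 hy0).1, fun hzT => (h z hzT).2 rfl⟩
  rw [h1, Matroid.closure_biInter_eq_biInter_closure_of_biUnion_indep hne
    (hJ.subset (by simp only [iUnion_subset_iff]; intro i _; exact sdiff_subset))]
  simpa using hT

lemma exchange_step (hK : M.Indep K) (hy : y ∈ K) (hx : x ∈ M.closure K)
    (hx' : x ∉ M.closure (K \ {y})) :
    M.Indep (insert x (K \ {y})) ∧ M.closure (insert x (K \ {y})) = M.closure K := by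
  have hKy : M.Indep (K \ {y}) := hK.subset sdiff_subset
  refine ⟨?_, ?_⟩
  · rw [hKy.insert_indep_iff]
    exact Or.inl ⟨M.mem_ground_of_mem_closure hx, hx'⟩
  · have h2 : insert y (K \ {y}) = K := by simp [insert_eq_of_mem hy]
    have := Matroid.closure_insert_congr (M := M) (e := x) (f := y) (X := K \ {y})
      ⟨by rwa [h2], hx'⟩
    rw [this, h2]

lemma rel_count (hI : M.Indep I) (hsub : I ⊆ M.closure (I₀ ∪ G)) :
    (I \ I₀).encard ≤ (I₀ \ I).encard + G.encard := by
  have hD : M.Indep (I ∩ I₀) := hI.subset inter_subset_left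
  have h1 : (M.contract (I ∩ I₀)).Indep (I \ (I ∩ I₀)) :=
    hI.diff_indep_contract_of_subset inter_subset_left
  have h2 : I \ (I ∩ I₀) = I \ I₀ := by ext z; simp
  rw [h2] at h1
  have h3 : I \ I₀ ⊆ (M.contract (I ∩ I₀)).closure ((I₀ \ I) ∪ G) := by
    rw [Matroid.contract_closure_eq]
    rintro z ⟨hzI, hzI₀⟩
    refine ⟨M.closure_subset_closure ?_ (hsub hzI), fun h => hzI₀ h.2⟩
    rintro w (hw | hw)
    · by_cases hwI : w ∈ I
      · exact Or.inr ⟨hwI, hw⟩
      · exact Or.inl (Or.inl ⟨hw, hwI⟩)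
    · exact Or.inl (Or.inr hw)
  calc (I \ I₀).encard ≤ (M.contract (I ∩ I₀)).eRk ((M.contract (I ∩ I₀)).closure ((I₀ \ I) ∪ G)) :=
        h1.encard_le_eRk_of_subset h3
    _ = (M.contract (I ∩ I₀)).eRk ((I₀ \ I) ∪ G) := Matroid.eRk_closure_eq _ _
    _ ≤ ((I₀ \ I) ∪ G).encard := Matroid.eRk_le_encard _ _
    _ ≤ (I₀ \ I).encard + G.encard := encard_union_le _ _

lemma ex_insert (hx : x ∉ K) (h1 : (K \ R).Finite) (h2 : (R \ K).Finite) :
    (insert x K \ R).Finite ∧ (R \ insert x K).Finite ∧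
      ((insert x K \ R).ncard : ℤ) - (R \ insert x K).ncard
        = (K \ R).ncard - (R \ K).ncard + 1 := by
  by_cases hxR : x ∈ R
  · have e1 : insert x K \ R = K \ R := by
      ext z; simp only [mem_sdiff, mem_insert_iff]
      constructor
      · rintro ⟨rfl | h, h'⟩
        · exact absurd hxR h'
        · exact ⟨h, h'⟩
      · rintro ⟨h, h'⟩; exact ⟨Or.inr h, h'⟩
    have e2 : R \ insert x K = (R \ K) \ {x} := by
      ext z; simp only [mem_sdiff, mem_insert_iff, mem_singleton_iff]; tauto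
    have hmem : x ∈ R \ K := ⟨hxR, hx⟩
    have e3 := ncard_sdiff_singleton_add_one hmem h2
    rw [e1, e2]
    refine ⟨h1, h2.subset sdiff_subset, ?_⟩
    omega
  · have e1 : insert x K \ R = insert x (K \ R) := by
      ext z; simp only [mem_sdiff, mem_insert_iff]
      constructor
      · rintro ⟨rfl | h, h'⟩
        · exact Or.inl rfl
        · exact Or.inr ⟨h, h'⟩
      · rintro (rfl | ⟨h, h'⟩)
        · exact ⟨Or.inl rfl, hxR⟩
        · exact ⟨Or.inr h, h'⟩
    have e2 : R \ insert x K = R \ K := by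
      ext z; simp only [mem_sdiff, mem_insert_iff]
      constructor
      · rintro ⟨h, h'⟩; exact ⟨h, fun hh => h' (Or.inr hh)⟩
      · rintro ⟨h, h'⟩
        refine ⟨h, ?_⟩
        rintro (rfl | hh)
        · exact hxR h
        · exact h' hh
    have e3 : (insert x (K \ R)).ncard = (K \ R).ncard + 1 :=
      ncard_insert_of_notMem (fun h => hx h.1) h1
    rw [e1, e2, e3]
    refine ⟨h1.insert x, h2, ?_⟩
    push_cast; ring

lemma ex_erase (hy : y ∈ K) (h1 : (K \ R).Finite) (h2 : (R \ K).Finite) :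
    ((K \ {y}) \ R).Finite ∧ (R \ (K \ {y})).Finite ∧
      (((K \ {y}) \ R).ncard : ℤ) - (R \ (K \ {y})).ncard
        = (K \ R).ncard - (R \ K).ncard - 1 := by
  by_cases hyR : y ∈ R
  · have e1 : (K \ {y}) \ R = K \ R := by
      ext z; simp only [mem_sdiff, mem_singleton_iff]
      constructor
      · rintro ⟨⟨h, _⟩, h'⟩; exact ⟨h, h'⟩
      · rintro ⟨h, h'⟩; exact ⟨⟨h, fun hh => h' (hh ▸ hyR)⟩, h'⟩
    have e2 : R \ (K \ {y}) = insert y (R \ K) := by
      ext z; simp only [mem_sdiff, mem_singleton_iff, mem_insert_iff]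
      constructor
      · rintro ⟨h, h'⟩
        by_cases hzy : z = y
        · exact Or.inl hzy
        · exact Or.inr ⟨h, fun hh => h' ⟨hh, hzy⟩⟩
      · rintro (rfl | ⟨h, h'⟩)
        · exact ⟨hyR, fun hh => hh.2 rfl⟩
        · exact ⟨h, fun hh => h' hh.1⟩
    have e3 : (insert y (R \ K)).ncard = (R \ K).ncard + 1 :=
      ncard_insert_of_notMem (fun h => h.2 hy) h2
    rw [e1, e2, e3]
    refine ⟨h1, h2.insert y, ?_⟩
    push_cast; ring
  · have e1 : (K \ {y}) \ R = (K \ R) \ {y} := by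
      ext z; simp only [mem_sdiff, mem_singleton_iff]; tauto
    have e2 : R \ (K \ {y}) = R \ K := by
      ext z; simp only [mem_sdiff, mem_singleton_iff]
      constructor
      · rintro ⟨h, h'⟩
        exact ⟨h, fun hh => h' ⟨hh, fun hzy => hyR (hzy ▸ h)⟩⟩
      · rintro ⟨h, h'⟩; exact ⟨h, fun hh => h' hh.1⟩
    have hmem : y ∈ K \ R := ⟨hy, hyR⟩
    have e3 := ncard_sdiff_singleton_add_one hmem h1
    rw [e1, e2]
    refine ⟨h1.subset sdiff_subset, h2, ?_⟩
    omega

/-- elements outside `J` reachable in one `M`-step from `PY` (or not spanned by `J` in `M`) -/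
def outM (M : Matroid α) (J PY : Set α) : Set α :=
  {x | x ∈ M.E ∧ x ∉ J ∧ (x ∉ M.closure J ∨ ∃ y ∈ PY, x ∉ M.closure (J \ {y}))}

/-- elements of `J` reachable in one `N`-step from `PX` -/
def outN (N : Matroid α) (J PX : Set α) : Set α :=
  {y | y ∈ J ∧ ∃ x ∈ PX, x ∉ N.closure (J \ {y})}

def lev (M N : Matroid α) (J : Set α) : ℕ → Set α × Set α
  | 0 => (∅, ∅)
  | n + 1 => (outM M J (lev M N J n).2, outN N J (outM M J (lev M N J n).2))

lemma outM_mono {A B : Set α} (h : A ⊆ B) : outM M J A ⊆ outM M J B := by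
  rintro x ⟨h1, h2, h3⟩
  refine ⟨h1, h2, ?_⟩
  rcases h3 with h3 | ⟨y, hy, h3⟩
  · exact Or.inl h3
  · exact Or.inr ⟨y, h hy, h3⟩

lemma outN_mono {A B : Set α} (h : A ⊆ B) : outN N J A ⊆ outN N J B := by
  rintro y ⟨h1, x, hx, h3⟩
  exact ⟨h1, x, h hx, h3⟩

lemma lev_snd (n : ℕ) : (lev M N J n).2 = outN N J (lev M N J n).1 := by
  cases n with
  | zero => simp [lev, outN]
  | succ n => rfl

lemma lev_succ_fst (n : ℕ) : (lev M N J (n+1)).1 = outM M J (lev M N J n).2 := rfl

lemma lev_mono (n : ℕ) : (lev M N J n).1 ⊆ (lev M N J (n+1)).1 ∧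
    (lev M N J n).2 ⊆ (lev M N J (n+1)).2 := by
  induction n with
  | zero => simp [lev]
  | succ n ih =>
    have h1 : (lev M N J (n+1)).1 ⊆ (lev M N J (n+2)).1 := by
      rw [lev_succ_fst, lev_succ_fst]; exact outM_mono ih.2
    refine ⟨h1, ?_⟩
    rw [lev_snd, lev_snd (n+2)]; exact outN_mono h1

lemma inv (hJM : M.Indep J) (hJN : N.Indep J) (hR1 : (J \ R).Finite) (hR2 : (R \ J).Finite)
    (n : ℕ) :
    (∀ x ∈ (lev M N J n).1, x ∈ N.closure J) →
    ∀ x ∈ (lev M N J (n+1)).1, x ∉ (lev M N J n).1 →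
      ∃ K, x ∉ K ∧ K.encard = J.encard ∧ N.Indep K ∧ N.closure K = N.closure J ∧
        M.Indep (insert x K) ∧ J \ (lev M N J n).2 ⊆ K ∧ K ⊆ J ∪ (lev M N J n).1 ∧
        (K \ R).Finite ∧ (R \ K).Finite ∧
        ((K \ R).ncard : ℤ) - (R \ K).ncard = (J \ R).ncard - (R \ J).ncard := by
  induction n with
  | zero =>
    intro _ x hx _
    obtain ⟨h1, h2, h3⟩ := hx
    have h3' : x ∉ M.closure J := by
      rcases h3 with h3 | ⟨y, hy, _⟩
      · exact h3
      · simp [lev] at hy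
    refine ⟨J, h2, rfl, hJN, rfl, ?_, sdiff_subset, subset_union_left, hR1, hR2, rfl⟩
    rw [hJM.insert_indep_iff]
    exact Or.inl ⟨h1, h3'⟩
  | succ n ih =>
    intro hX2 x hx hxn
    obtain ⟨hxE, hxJ, h3⟩ := hx
    -- x not in level n+1
    have hxn' : x ∈ M.closure J ∧ ∀ y ∈ (lev M N J n).2, x ∈ M.closure (J \ {y}) := by
      rw [lev_succ_fst] at hxn
      by_contra hcon
      apply hxn
      refine ⟨hxE, hxJ, ?_⟩
      by_contra hcon2
      push Not at hcon2
      exact hcon ⟨hcon2.1, hcon2.2⟩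
    obtain ⟨y, hy, hxy⟩ : ∃ y ∈ (lev M N J (n+1)).2, x ∉ M.closure (J \ {y}) := by
      rcases h3 with h3 | h3
      · exact absurd hxn'.1 h3
      · exact h3
    have hyn : y ∉ (lev M N J n).2 := fun h => hxy (hxn'.2 y h)
    rw [lev_snd] at hy
    obtain ⟨hyJ, x', hx', hx'y⟩ := hy
    have hx'n : x' ∉ (lev M N J n).1 := by
      intro h
      apply hyn
      rw [lev_snd]
      exact ⟨hyJ, x', h, hx'y⟩
    obtain ⟨K', hx'K', hcard, hK'N, hclN, hLM, hsub1, hsub2, hf1, hf2, hex⟩ :=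
      ih (fun z hz => hX2 z ((lev_mono n).1 hz)) x' hx' hx'n
    have hx'J : x' ∉ J := hx'.2.1
    have hyK' : y ∈ K' := hsub1 ⟨hyJ, hyn⟩
    have hx'y_ne : x' ≠ y := fun h => hx'J (h ▸ hyJ)
    -- N step
    have hN1 : x' ∈ N.closure K' := by rw [hclN]; exact hX2 x' hx'
    have hN2 : x' ∉ N.closure (K' \ {y}) := by
      intro h
      apply hx'y
      refine (N.closure_subset_closure_of_subset_closure ?_) h
      rintro z ⟨hzK', hzy⟩
      rcases hsub2 hzK' with hzJ | hzP
      · exact N.mem_closure_of_mem' ⟨hzJ, hzy⟩ (hJN.subset_ground hzJ)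
      · by_contra hz
        apply hyn
        rw [lev_snd]
        exact ⟨hyJ, z, hzP, hz⟩
    obtain ⟨hKN, hKcl⟩ := exchange_step hK'N hyK' hN1 hN2
    obtain ⟨g1, g2, g3⟩ := ex_erase (R := R) hyK' hf1 hf2
    obtain ⟨k1, k2, k3⟩ := ex_insert (R := R) (x := x') (K := K' \ {y})
      (fun h => hx'K' h.1) g1 g2
    refine ⟨insert x' (K' \ {y}), ?_, ?_, hKN, hKcl.trans hclN, ?_, ?_, ?_, k1, k2, by omega⟩
    · -- x ∉ K
      intro h
      rcases h with rfl | h
      · exact hxn hx'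
      · rcases hsub2 h.1 with h | h
        · exact hxJ h
        · exact hxn ((lev_mono n).1 h)
    · rw [← hcard]
      exact encard_exchange hx'K' hyK'
    · -- M step
      have hKeq : insert x' (K' \ {y}) = insert x' K' \ {y} := by
        rw [insert_sdiff_of_notMem _ (by simpa using hx'y_ne)]
      have hKM : M.Indep (insert x' (K' \ {y})) := by
        rw [hKeq]; exact hLM.subset sdiff_subset
      rw [hKM.insert_indep_iff]
      refine Or.inl ⟨hxE, fun hxK => hxy ?_⟩
      have hS : x ∈ M.closure (J \ (lev M N J n).2) :=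
        mem_closure_sdiff_of_forall hJM hxn'.1 hxn'.2
      have hunion : M.Indep ((J \ (lev M N J n).2) ∪ insert x' (K' \ {y})) := by
        refine hLM.subset ?_
        apply union_subset
        · exact hsub1.trans (subset_insert _ _)
        · exact insert_subset_insert sdiff_subset
      have := hunion.closure_inter_eq_inter_closure
      have hmem : x ∈ M.closure ((J \ (lev M N J n).2) ∩ insert x' (K' \ {y})) := by
        rw [this]; exact ⟨hS, hxK⟩
      refine M.closure_subset_closure ?_ hmem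
      rintro z ⟨⟨hzJ, _⟩, hz2⟩
      rcases hz2 with rfl | hz2
      · exact absurd hzJ hx'J
      · exact ⟨hzJ, hz2.2⟩
    · rintro z ⟨hzJ, hzn⟩
      have hzn' : z ∉ (lev M N J n).2 := fun h => hzn ((lev_mono n).2 h)
      refine Or.inr ⟨hsub1 ⟨hzJ, hzn'⟩, ?_⟩
      intro hzy
      apply hzn
      rw [mem_singleton_iff] at hzy
      rw [hzy, lev_snd]
      exact ⟨hyJ, x', hx', hx'y⟩
    · rintro z (rfl | hz)
      · exact Or.inr hx'
      · rcases hsub2 hz.1 with h | h
        · exact Or.inl h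
        · exact Or.inr ((lev_mono n).1 h)

lemma augment (hJM : M.Indep J) (hJN : N.Indep J) (hE : M.E = N.E)
    (hR1 : (J \ R).Finite) (hR2 : (R \ J).Finite)
    (h : ∃ n, ∃ x ∈ (lev M N J n).1, x ∉ N.closure J) :
    ∃ J', M.Indep J' ∧ N.Indep J' ∧ J'.encard = J.encard + 1 ∧
      (J' \ R).Finite ∧ (R \ J').Finite ∧
      ((J' \ R).ncard : ℤ) - (R \ J').ncard = (J \ R).ncard - (R \ J).ncard + 1 := by
  classical
  have hmin : ∀ {m : ℕ}, m < Nat.find h → ¬ ∃ x ∈ (lev M N J m).1, x ∉ N.closure J :=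
    fun hm => Nat.find_min h hm
  obtain ⟨x, hx, hxN⟩ := Nat.find_spec h
  set m := Nat.find h with hm
  cases hmm : m with
  | zero => rw [hmm] at hx; simp [lev] at hx
  | succ k =>
    rw [hmm] at hx
    have hk : ∀ z ∈ (lev M N J k).1, z ∈ N.closure J := by
      intro z hz
      by_contra hzN
      exact hmin (m := k) (by omega) ⟨z, hz, hzN⟩
    have hxk : x ∉ (lev M N J k).1 := fun hh => hxN (hk x hh)
    obtain ⟨K, hxK, hcard, hKN, hcl, hKM, _, _, hf1, hf2, hex⟩ :=
      inv hJM hJN hR1 hR2 k hk x hx hxk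
    obtain ⟨k1, k2, k3⟩ := ex_insert (R := R) hxK hf1 hf2
    refine ⟨insert x K, hKM, ?_, ?_, k1, k2, by omega⟩
    · rw [hKN.insert_indep_iff]
      refine Or.inl ⟨?_, by rwa [hcl]⟩
      rw [← hE]; exact hx.1
    · rw [encard_insert_of_notMem hxK, hcard]

lemma certificate (hJM : M.Indep J) (hJN : N.Indep J) (hE : M.E = N.E)
    (h : ∀ n, ∀ x ∈ (lev M N J n).1, x ∈ N.closure J) :
    ∃ JM JN : Set α, Disjoint JM JN ∧ M.Indep (JM ∪ JN) ∧ N.Indep (JM ∪ JN) ∧
      M.closure JM ∪ N.closure JN = M.E := by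
  set RY : Set α := ⋃ n, (lev M N J n).2 with hRY
  have hRYJ : RY ⊆ J := by
    intro y hy
    obtain ⟨n, hn⟩ := mem_iUnion.1 hy
    rw [lev_snd] at hn
    exact hn.1
  have hun : J \ RY ∪ RY = J := sdiff_union_of_subset hRYJ
  refine ⟨J \ RY, RY, disjoint_sdiff_left, by rwa [hun], by rwa [hun], ?_⟩
  apply subset_antisymm
  · apply union_subset (M.closure_subset_ground _)
    rw [hE]; exact N.closure_subset_ground _
  intro e heE
  by_cases heJ : e ∈ J
  · by_cases heR : e ∈ RY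
    · exact Or.inr (N.mem_closure_of_mem' heR (hE ▸ heE))
    · exact Or.inl (M.mem_closure_of_mem' ⟨heJ, heR⟩ heE)
  by_cases hex : ∃ n, e ∈ (lev M N J n).1
  · obtain ⟨n, hn⟩ := hex
    right
    have h1 : e ∈ N.closure (J \ (J \ RY)) := by
      apply mem_closure_sdiff_of_forall hJN (h n e hn)
      rintro y ⟨hyJ, hyR⟩
      by_contra hcon
      apply hyR
      apply mem_iUnion.2 ⟨n, ?_⟩
      rw [lev_snd]
      exact ⟨hyJ, e, hn, hcon⟩
    rwa [sdiff_sdiff_right_self, inter_eq_self_of_subset_right hRYJ] at h1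
  · left
    push Not at hex
    have h0 : e ∈ M.closure J := by
      by_contra hcon
      exact hex 1 ⟨heE, heJ, Or.inl hcon⟩
    apply mem_closure_sdiff_of_forall hJM h0
    intro y hy
    obtain ⟨n, hn⟩ := mem_iUnion.1 hy
    by_contra hcon
    exact hex (n+1) ⟨heE, heJ, Or.inr ⟨y, hn, hcon⟩⟩

/-- an infinite set all of whose finite subsets are independent contains an infinite
independent set -/
lemma exists_infinite_indep {X : Set α} (hX : X.Infinite)
    (h : ∀ F ⊆ X, F.Finite → M.Indep F) : ∃ B ⊆ X, M.Indep B ∧ B.Infinite := by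
  obtain ⟨B, hB⟩ := M.exists_isBasis' X
  refine ⟨B, hB.subset, hB.indep, ?_⟩
  rw [← encard_eq_top_iff, hB.encard_eq_eRk, ENat.eq_top_iff_forall_ge]
  intro m
  obtain ⟨F, hFX, hF⟩ := exists_subset_encard_eq (s := X) (k := m) (by simp [hX.encard_eq])
  have hFfin : F.Finite := finite_of_encard_eq_coe hF
  rw [← hF]
  exact (h F hFX hFfin).encard_le_eRk_of_subset hFX

lemma finite_of_forall_finite (hfin : ∀ I, M.Indep I → N.Indep I → I.Finite) {U : Set α}
    (hU : ∀ F ⊆ U, F.Finite → M.Indep F ∧ N.Indep F) : U.Finite := by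
  by_contra hinf
  obtain ⟨B, hBU, hBM, hBinf⟩ := exists_infinite_indep (M := M) hinf (fun F hF hf => (hU F hF hf).1)
  obtain ⟨B', hB'B, hB'N, hB'inf⟩ := exists_infinite_indep (M := N) hBinf
    (fun F hF hf => (hU F (hF.trans hBU) hf).2)
  exact hB'inf (hfin B' (hBM.subset hB'B) hB'N)

lemma exists_maximal (hfin : ∀ I, M.Indep I → N.Indep I → I.Finite) :
    ∃ J, Maximal (· ∈ {I | M.Indep I ∧ N.Indep I}) J := by
  apply zorn_subset
  intro c hc hchain
  rcases c.eq_empty_or_nonempty with rfl | hne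
  · exact ⟨∅, ⟨M.empty_indep, N.empty_indep⟩, by simp⟩
  have hfs : ∀ F ⊆ ⋃₀ c, F.Finite → M.Indep F ∧ N.Indep F := by
    intro F hF hFfin
    obtain ⟨t, htc, hFt⟩ :=
      hchain.directedOn.exists_mem_subset_of_finite_of_subset_sUnion hne hFfin hF
    exact ⟨(hc htc).1.subset hFt, (hc htc).2.subset hFt⟩
  have hUfin : (⋃₀ c).Finite := finite_of_forall_finite hfin hfs
  exact ⟨⋃₀ c, hfs _ subset_rfl hUfin, fun s hs => subset_sUnion_of_mem hs⟩

lemma bounded (hfin : ∀ I, M.Indep I → N.Indep I → I.Finite) :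
    ∃ B : ℕ, ∀ I, M.Indep I → N.Indep I → I.encard ≤ B := by
  obtain ⟨J, hJ⟩ := exists_maximal hfin
  have hJM : M.Indep J := hJ.prop.1
  have hJN : N.Indep J := hJ.prop.2
  have hJfin : J.Finite := hfin J hJM hJN
  refine ⟨2 * J.ncard, fun I hIM hIN => ?_⟩
  have hcov : I ⊆ (I ∩ M.closure J) ∪ (I ∩ N.closure J) := by
    intro e he
    by_contra hcon
    have h1 : e ∉ M.closure J := fun h => hcon (Or.inl ⟨he, h⟩)
    have h2 : e ∉ N.closure J := fun h => hcon (Or.inr ⟨he, h⟩)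
    have hins : insert e J ∈ {I | M.Indep I ∧ N.Indep I} := by
      refine ⟨?_, ?_⟩
      · rw [hJM.insert_indep_iff]; exact Or.inl ⟨hIM.subset_ground he, h1⟩
      · rw [hJN.insert_indep_iff]; exact Or.inl ⟨hIN.subset_ground he, h2⟩
    have := hJ.le_of_ge hins (subset_insert e J)
    exact h1 (M.mem_closure_of_mem' (this (mem_insert e J)) (hIM.subset_ground he))
  have hA : (I ∩ M.closure J).encard ≤ J.encard := by
    have := (hIM.subset inter_subset_left).encard_le_eRk_of_subset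
      (inter_subset_right : I ∩ M.closure J ⊆ M.closure J)
    rwa [M.eRk_closure_eq, hJM.eRk_eq_encard] at this
  have hB : (I ∩ N.closure J).encard ≤ J.encard := by
    have := (hIN.subset inter_subset_left).encard_le_eRk_of_subset
      (inter_subset_right : I ∩ N.closure J ⊆ N.closure J)
    rwa [N.eRk_closure_eq, hJN.eRk_eq_encard] at this
  calc I.encard ≤ ((I ∩ M.closure J) ∪ (I ∩ N.closure J)).encard := encard_le_encard hcov
    _ ≤ (I ∩ M.closure J).encard + (I ∩ N.closure J).encard := encard_union_le _ _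
    _ ≤ J.encard + J.encard := add_le_add hA hB
    _ = ((2 * J.ncard : ℕ) : ℕ∞) := by
        rw [← hJfin.cast_ncard_eq]; push_cast; ring

theorem intersection_of_finite (hE : M.E = N.E)
    (hfin : ∀ I, M.Indep I → N.Indep I → I.Finite) :
    ∃ JM JN : Set α, Disjoint JM JN ∧ M.Indep (JM ∪ JN) ∧ N.Indep (JM ∪ JN) ∧
      M.closure JM ∪ N.closure JN = M.E := by
  by_contra hno
  obtain ⟨B, hB⟩ := bounded hfin
  have key : ∀ k : ℕ, ∃ I, M.Indep I ∧ N.Indep I ∧ (k : ℕ∞) ≤ I.encard := by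
    intro k
    induction k with
    | zero => exact ⟨∅, M.empty_indep, N.empty_indep, by simp⟩
    | succ k ih =>
      obtain ⟨I, hIM, hIN, hk⟩ := ih
      have : ∃ n, ∃ x ∈ (lev M N I n).1, x ∉ N.closure I := by
        by_contra hcon
        push Not at hcon
        exact hno (certificate hIM hIN hE hcon)
      obtain ⟨I', h1, h2, h3, _⟩ := augment (R := I) hIM hIN hE (by simp) (by simp) this
      refine ⟨I', h1, h2, ?_⟩
      rw [h3]; push_cast
      exact add_le_add hk le_rfl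
  obtain ⟨I, h1, h2, h3⟩ := key (B + 1)
  have := h3.trans (hB I h1 h2)
  norm_cast at this
  omega

end Vale.Agent.Lib.P068
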