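import Mathlib
import Vale.Agent.Lib.P068.Intersection
open Set

namespace Vale.Agent.Lib.P068

variable {α : Type*} {M N : Matroid α} {J₀ J₁ F J' : Set α}

lemma excess_bound (hdisj : Disjoint J₀ J₁) (hJN : N.Indep (J₀ ∪ J₁))
    (hcov : M.E ⊆ M.closure (J₀ ∪ F) ∪ N.closure (J₁ ∪ F)) (hF : F.Finite)
    (hJ'M : M.Indep J') (hJ'N : N.Indep J') :
    (J' \ (J₀ ∪ J₁)).encard ≤ ((J₀ ∪ J₁) \ J').encard + (F.encard + F.encard) := by
  set A := J' ∩ N.closure (J₁ ∪ F) with hA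
  set B := J' \ N.closure (J₁ ∪ F) with hB
  set C := J₀ ∩ A with hC
  have hBsub : B ⊆ M.closure (J₀ ∪ F) := by
    rintro z ⟨hz, hzN⟩
    rcases hcov (hJ'M.subset_ground hz) with h | h
    · exact h
    · exact absurd h hzN
  have h2 := rel_count (I := B) (I₀ := J₀) (G := F) (hJ'M.subset sdiff_subset) hBsub
  have h3 := rel_count (I := A) (I₀ := J₁) (G := F) (hJ'N.subset inter_subset_left)
    inter_subset_right
  have hJ₁cl : J₁ ⊆ N.closure (J₁ ∪ F) := by
    intro z hz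
    exact N.mem_closure_of_mem' (Or.inl hz) (hJN.subset_ground (Or.inr hz))
  have h4 := rel_count (M := N) (I := J₁ ∪ C) (I₀ := J₁) (G := F)
    (hJN.subset (by
      rintro z (hz | hz)
      · exact Or.inr hz
      · exact Or.inl hz.1))
    (by
      rintro z (hz | hz)
      · exact hJ₁cl hz
      · exact hz.2.2)
  have e1 : (J₁ ∪ C) \ J₁ = C := by
    ext z
    simp only [mem_sdiff, mem_union]
    constructor
    · rintro ⟨h | h, h'⟩
      · exact absurd h h'
      · exact h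
    · intro h
      exact ⟨Or.inr h, fun h' => (disjoint_left.1 hdisj) h.1 h'⟩
  have e2 : J₁ \ (J₁ ∪ C) = ∅ := by
    ext z
    simp only [mem_sdiff, mem_union, mem_empty_iff_false, iff_false]
    rintro ⟨h, h'⟩
    exact h' (Or.inl h)
  rw [e1, e2, encard_empty, zero_add] at h4
  have hCfin : C.encard ≠ ⊤ := by
    have : C.encard < ⊤ := lt_of_le_of_lt h4 hF.encard_lt_top
    exact this.ne
  -- set identities
  have i1 : J' \ (J₀ ∪ J₁) ⊆ (A \ (J₀ ∪ J₁)) ∪ (B \ (J₀ ∪ J₁)) := by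
    rintro z ⟨hz, hzJ⟩
    by_cases hzc : z ∈ N.closure (J₁ ∪ F)
    · exact Or.inl ⟨⟨hz, hzc⟩, hzJ⟩
    · exact Or.inr ⟨⟨hz, hzc⟩, hzJ⟩
  have i2 : A \ J₁ = (A \ (J₀ ∪ J₁)) ∪ C := by
    ext z
    simp only [mem_sdiff, mem_union, hC, mem_inter_iff]
    constructor
    · rintro ⟨hzA, hz1⟩
      by_cases hz0 : z ∈ J₀
      · exact Or.inr ⟨hz0, hzA⟩
      · exact Or.inl ⟨hzA, fun h => h.elim hz0 hz1⟩
    · rintro (⟨hzA, hz⟩ | ⟨hz0, hzA⟩)
      · exact ⟨hzA, fun h => hz (Or.inr h)⟩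
      · exact ⟨hzA, fun h => (disjoint_left.1 hdisj) hz0 h⟩
  have i2d : Disjoint (A \ (J₀ ∪ J₁)) C := by
    rw [disjoint_left]
    rintro z ⟨_, hz⟩ hzC
    exact hz (Or.inl hzC.1)
  have i3 : B \ (J₀ ∪ J₁) ⊆ B \ J₀ := by
    rintro z ⟨hz, hzJ⟩
    exact ⟨hz, fun h => hzJ (Or.inl h)⟩
  have i4 : J₁ \ A ⊆ J₁ \ J' := by
    rintro z ⟨hz, hzA⟩
    exact ⟨hz, fun h => hzA ⟨h, hJ₁cl hz⟩⟩
  have i5 : J₀ \ B ⊆ (J₀ \ J') ∪ C := by
    rintro z ⟨hz, hzB⟩
    by_cases hzJ' : z ∈ J'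
    · right
      refine ⟨hz, hzJ', ?_⟩
      by_contra hcon
      exact hzB ⟨hzJ', hcon⟩
    · exact Or.inl ⟨hz, hzJ'⟩
  have i6 : (J₀ ∪ J₁) \ J' = (J₁ \ J') ∪ (J₀ \ J') := by
    ext z; simp only [mem_sdiff, mem_union]; tauto
  have i6d : Disjoint (J₁ \ J') (J₀ \ J') := by
    rw [disjoint_left]
    rintro z ⟨hz1, _⟩ ⟨hz0, _⟩
    exact (disjoint_left.1 hdisj) hz0 hz1
  set a := (A \ (J₀ ∪ J₁)).encard
  set b := (B \ (J₀ ∪ J₁)).encard
  set c := C.encard
  set f := F.encard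
  set p := (J₁ \ J').encard
  set q := (J₀ \ J').encard
  have k1 : (J' \ (J₀ ∪ J₁)).encard ≤ a + b :=
    (encard_le_encard i1).trans (encard_union_le _ _)
  have k2 : a + c ≤ p + f := by
    have : (A \ J₁).encard = a + c := by rw [i2, encard_union_eq i2d]
    rw [← this]
    exact h3.trans (add_le_add (encard_le_encard i4) le_rfl)
  have k3 : b ≤ q + c + f := by
    refine (encard_le_encard i3).trans (h2.trans (add_le_add ?_ le_rfl))
    exact (encard_le_encard i5).trans (encard_union_le _ _)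
  have k4 : ((J₀ ∪ J₁) \ J').encard = p + q := by rw [i6, encard_union_eq i6d]
  rw [k4]
  refine k1.trans ?_
  have k5 : a + b + c ≤ p + q + (f + f) + c := by
    calc a + b + c = (a + c) + b := by ring
      _ ≤ (p + f) + (q + c + f) := add_le_add k2 k3
      _ = p + q + (f + f) + c := by ring
  exact (ENat.add_le_add_iff_right hCfin).1 k5

theorem intersection_of_finite_defect (hE : M.E = N.E) (hdisj : Disjoint J₀ J₁)
    (hJM : M.Indep (J₀ ∪ J₁)) (hJN : N.Indep (J₀ ∪ J₁)) (hF : F.Finite)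
    (hcov : M.E ⊆ M.closure (J₀ ∪ F) ∪ N.closure (J₁ ∪ F)) :
    ∃ JM JN : Set α, Disjoint JM JN ∧ M.Indep (JM ∪ JN) ∧ N.Indep (JM ∪ JN) ∧
      M.closure JM ∪ N.closure JN = M.E := by
  by_contra hno
  set R := J₀ ∪ J₁ with hR
  have key : ∀ t : ℕ, ∃ I, M.Indep I ∧ N.Indep I ∧ (I \ R).Finite ∧ (R \ I).Finite ∧
      ((I \ R).ncard : ℤ) - (R \ I).ncard = t := by
    intro t
    induction t with
    | zero => exact ⟨R, hJM, hJN, by simp, by simp, by simp⟩
    | succ t ih =>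
      obtain ⟨I, hIM, hIN, hf1, hf2, hex⟩ := ih
      have : ∃ n, ∃ x ∈ (lev M N I n).1, x ∉ N.closure I := by
        by_contra hcon
        push Not at hcon
        exact hno (certificate hIM hIN hE hcon)
      obtain ⟨I', h1, h2, _, h4, h5, h6⟩ := augment (R := R) hIM hIN hE hf1 hf2 this
      exact ⟨I', h1, h2, h4, h5, by push_cast; omega⟩
  obtain ⟨I, hIM, hIN, hf1, hf2, hex⟩ := key (2 * F.ncard + 1)
  have hb := excess_bound hdisj hJN hcov hF hIM hIN
  rw [← hR, ← hf1.cast_ncard_eq, ← hf2.cast_ncard_eq, ← hF.cast_ncard_eq] at hb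
  norm_cast at hb
  push_cast at hex
  omega


theorem intersection_of_dual_rankFinite (hE : M.E = N.E) (hN : N.dual.RankFinite) :
    ∃ JM JN : Set α, Disjoint JM JN ∧ M.Indep (JM ∪ JN) ∧ N.Indep (JM ∪ JN) ∧
      M.closure JM ∪ N.closure JN = M.E := by
  obtain ⟨I, hI⟩ := M.exists_isBase
  have hIN : I ⊆ N.E := hE ▸ hI.subset_ground
  obtain ⟨J, hJ⟩ := N.exists_isBasis I hIN
  obtain ⟨B, hB, hJB⟩ := hJ.indep.exists_isBase_superset
  have hfin : (I \ J).Finite := by
    have h1 : (N.E \ B).Finite := hB.compl_isBase_dual.finite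
    refine h1.subset ?_
    rintro z ⟨hzI, hzJ⟩
    exact ⟨hIN hzI, fun hzB =>
      hzJ (hJ.mem_of_insert_indep hzI (hB.indep.subset (insert_subset hzB hJB)))⟩
  refine intersection_of_finite_defect (J₀ := J) (J₁ := ∅) (F := I \ J) hE (by simp)
    (by simpa using hI.indep.subset hJ.subset) (by simpa using hJ.indep) hfin ?_
  have h2 : J ∪ I \ J = I := union_sdiff_cancel hJ.subset
  rw [h2, hI.closure_eq]
  exact subset_union_left

theorem intersection_of_delete (hE : M.E = N.E) (hF : F.Finite)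
    (h : ∃ JM JN : Set α, Disjoint JM JN ∧ (M.delete F).Indep (JM ∪ JN) ∧
      (N.delete F).Indep (JM ∪ JN) ∧
      (M.delete F).closure JM ∪ (N.delete F).closure JN = (M.delete F).E) :
    ∃ JM JN : Set α, Disjoint JM JN ∧ M.Indep (JM ∪ JN) ∧ N.Indep (JM ∪ JN) ∧
      M.closure JM ∪ N.closure JN = M.E := by
  obtain ⟨JM, JN, hd, hM, hN, hcl⟩ := h
  rw [Matroid.delete_indep_iff] at hM hN
  refine intersection_of_finite_defect (J₀ := JM) (J₁ := JN) (F := F) hE hd hM.1 hN.1 hF ?_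
  intro e he
  by_cases heF : e ∈ F
  · exact Or.inl (M.mem_closure_of_mem' (Or.inr heF) he)
  · have h1 : e ∈ (M.delete F).E := ⟨he, heF⟩
    rw [← hcl, Matroid.delete_closure_eq, Matroid.delete_closure_eq] at h1
    rcases h1 with h1 | h1
    · exact Or.inl (M.closure_subset_closure (sdiff_subset.trans subset_union_left) h1.1)
    · exact Or.inr (N.closure_subset_closure (sdiff_subset.trans subset_union_left) h1.1)

/-- removing finitely many elements from a spanning set costs only finitely many new ones -/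
lemma exists_finite_repair {J : Set α} (hJ : M.Indep J) (hF : F.Finite) :
    ∃ F' : Set α, F'.Finite ∧ Disjoint F' F ∧ M.closure J \ F ⊆ M.closure ((J \ F) ∪ F') := by
  have hJ0 : M.Indep (J \ F) := hJ.subset sdiff_subset
  have hsub : J \ F ⊆ M.closure J \ F := by
    rintro z ⟨hz, hzF⟩
    exact ⟨M.mem_closure_of_mem' hz (hJ.subset_ground hz), hzF⟩
  obtain ⟨B, hB, hJB⟩ := hJ0.subset_isBasis_of_subset hsub
    (sdiff_subset.trans (M.closure_subset_ground _))
  have hcount := rel_count (I := B) (I₀ := J \ F) (G := J ∩ F) hB.indep (by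
    intro z hz
    have h1 : z ∈ M.closure J := (hB.subset hz).1
    refine M.closure_subset_closure ?_ h1
    intro w hw
    by_cases hwF : w ∈ F
    · exact Or.inr ⟨hw, hwF⟩
    · exact Or.inl ⟨hw, hwF⟩)
  have h0 : (J \ F) \ B = ∅ := by
    ext z
    simp only [mem_sdiff, mem_empty_iff_false, iff_false]
    rintro ⟨h, h'⟩
    exact h' (hJB h)
  rw [h0, encard_empty, zero_add] at hcount
  refine ⟨B \ (J \ F), ?_, ?_, ?_⟩
  · have : (B \ (J \ F)).encard < ⊤ :=
      lt_of_le_of_lt hcount (hF.subset inter_subset_right).encard_lt_top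
    exact encard_lt_top_iff.1 this
  · rw [disjoint_left]
    rintro z ⟨hz, _⟩ hzF
    exact (hB.subset hz).2 hzF
  · rw [union_sdiff_cancel hJB]
    exact hB.subset_closure

theorem delete_of_intersection (hE : M.E = N.E) (hF : F.Finite)
    (h : ∃ JM JN : Set α, Disjoint JM JN ∧ M.Indep (JM ∪ JN) ∧ N.Indep (JM ∪ JN) ∧
      M.closure JM ∪ N.closure JN = M.E) :
    ∃ JM JN : Set α, Disjoint JM JN ∧ (M.delete F).Indep (JM ∪ JN) ∧
      (N.delete F).Indep (JM ∪ JN) ∧
      (M.delete F).closure JM ∪ (N.delete F).closure JN = (M.delete F).E := by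
  obtain ⟨JM, JN, hd, hM, hN, hcl⟩ := h
  obtain ⟨F1, hF1, hF1d, hF1c⟩ := exists_finite_repair (M := M) (J := JM) (F := F)
    (hM.subset subset_union_left) hF
  obtain ⟨F2, hF2, hF2d, hF2c⟩ := exists_finite_repair (M := N) (J := JN) (F := F)
    (hN.subset subset_union_right) hF
  have hsubU : JM \ F ∪ JN \ F ⊆ JM ∪ JN := union_subset_union sdiff_subset sdiff_subset
  have hdU : Disjoint (JM \ F ∪ JN \ F) F := by
    rw [disjoint_left]
    rintro z (hz | hz) hzF
    · exact hz.2 hzF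
    · exact hz.2 hzF
  refine intersection_of_finite_defect (M := M.delete F) (N := N.delete F)
    (J₀ := JM \ F) (J₁ := JN \ F) (F := F1 ∪ F2) ?_ ?_ ?_ ?_ (hF1.union hF2) ?_
  · simp only [Matroid.delete_ground, hE]
  · exact hd.mono sdiff_subset sdiff_subset
  · exact Matroid.delete_indep_iff.2 ⟨hM.subset hsubU, hdU⟩
  · exact Matroid.delete_indep_iff.2 ⟨hN.subset hsubU, hdU⟩
  · rintro e ⟨he, heF⟩
    rw [Matroid.delete_closure_eq, Matroid.delete_closure_eq]
    rw [← hcl] at he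
    rcases he with he | he
    · left
      refine ⟨M.closure_subset_closure ?_ (hF1c ⟨he, heF⟩), heF⟩
      rintro z (hz | hz)
      · exact ⟨Or.inl hz, hz.2⟩
      · exact ⟨Or.inr (Or.inl hz), fun h => (disjoint_left.1 hF1d) hz h⟩
    · right
      refine ⟨N.closure_subset_closure ?_ (hF2c ⟨he, heF⟩), heF⟩
      rintro z (hz | hz)
      · exact ⟨Or.inl hz, hz.2⟩
      · exact ⟨Or.inr (Or.inr hz), fun h => (disjoint_left.1 hF2d) hz h⟩

end Vale.Agent.Lib.P068
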