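import Mathlib
import Vale.Agent.Lib.P068.Defect
open Set

namespace Vale.Agent.Lib.P068

variable {α : Type*} {M N : Matroid α} {F : Set α}

theorem intersection_of_contract (hE : M.E = N.E) (hF : F.Finite)
    (h : ∃ JM JN : Set α, Disjoint JM JN ∧ (M.contract F).Indep (JM ∪ JN) ∧
      (N.contract F).Indep (JM ∪ JN) ∧
      (M.contract F).closure JM ∪ (N.contract F).closure JN = (M.contract F).E) :
    ∃ JM JN : Set α, Disjoint JM JN ∧ M.Indep (JM ∪ JN) ∧ N.Indep (JM ∪ JN) ∧
      M.closure JM ∪ N.closure JN = M.E := by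
  obtain ⟨JM, JN, hd, hM, hN, hcl⟩ := h
  refine intersection_of_finite_defect (J₀ := JM) (J₁ := JN) (F := F) hE hd hM.of_contract
    hN.of_contract hF ?_
  intro e he
  by_cases heF : e ∈ F
  · exact Or.inl (M.mem_closure_of_mem' (Or.inr heF) he)
  · have h1 : e ∈ (M.contract F).E := ⟨he, heF⟩
    rw [← hcl, Matroid.contract_closure_eq, Matroid.contract_closure_eq] at h1
    rcases h1 with h1 | h1
    · exact Or.inl h1.1
    · exact Or.inr h1.1

/-- an independent set avoiding the finite set `F` becomes independent in the contraction of `F`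
after removing finitely many elements -/
lemma exists_contract_indep {I : Set α} (hI : M.Indep I) (hIF : Disjoint I F) (hF : F.Finite) :
    ∃ K ⊆ I, (M.contract F).Indep K ∧ (I \ K).Finite := by
  have hsub : I ⊆ (M.contract F).E := fun z hz =>
    ⟨hI.subset_ground hz, fun h => (disjoint_left.1 hIF) hz h⟩
  obtain ⟨K, hK⟩ := (M.contract F).exists_isBasis I hsub
  refine ⟨K, hK.subset, hK.indep, ?_⟩
  have hcl : I ⊆ M.closure (K ∪ F) := by
    intro z hz
    have := hK.subset_closure hz
    rw [Matroid.contract_closure_eq] at this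
    exact this.1
  have hcount := rel_count (I := I) (I₀ := K) (G := F) hI hcl
  have h0 : K \ I = ∅ := by
    ext z
    simp only [mem_sdiff, mem_empty_iff_false, iff_false]
    rintro ⟨h, h'⟩
    exact h' (hK.subset h)
  rw [h0, encard_empty, zero_add] at hcount
  exact encard_lt_top_iff.1 (lt_of_le_of_lt hcount hF.encard_lt_top)

theorem contract_of_intersection (hE : M.E = N.E) (hF : F.Finite)
    (h : ∃ JM JN : Set α, Disjoint JM JN ∧ M.Indep (JM ∪ JN) ∧ N.Indep (JM ∪ JN) ∧
      M.closure JM ∪ N.closure JN = M.E) :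
    ∃ JM JN : Set α, Disjoint JM JN ∧ (M.contract F).Indep (JM ∪ JN) ∧
      (N.contract F).Indep (JM ∪ JN) ∧
      (M.contract F).closure JM ∪ (N.contract F).closure JN = (M.contract F).E := by
  obtain ⟨JM, JN, hd, hM, hN, hcl⟩ := h
  obtain ⟨K1, hK1sub, hK1, hK1fin⟩ := exists_contract_indep (M := M) (I := (JM ∪ JN) \ F)
    (hM.subset sdiff_subset) disjoint_sdiff_left hF
  obtain ⟨K2, hK2sub, hK2, hK2fin⟩ := exists_contract_indep (M := N) (I := K1)
    (hN.subset (hK1sub.trans sdiff_subset)) (disjoint_sdiff_left.mono_left hK1sub) hF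
  have hDfin : (((JM ∪ JN) \ F) \ K2).Finite := by
    refine (hK1fin.union hK2fin).subset ?_
    rintro z ⟨hz, hzK2⟩
    by_cases hz1 : z ∈ K1
    · exact Or.inr ⟨hz1, hzK2⟩
    · exact Or.inl ⟨hz, hz1⟩
  have hK2J : K2 ⊆ JM ∪ JN := (hK2sub.trans hK1sub).trans sdiff_subset
  have hun : JM ∩ K2 ∪ JN ∩ K2 = K2 := by
    rw [← union_inter_distrib_right]
    exact inter_eq_self_of_subset_right hK2J
  refine intersection_of_finite_defect (M := M.contract F) (N := N.contract F)
    (J₀ := JM ∩ K2) (J₁ := JN ∩ K2) (F := ((JM ∪ JN) \ F) \ K2) ?_ ?_ ?_ ?_ hDfin ?_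
  · simp only [Matroid.contract_ground, hE]
  · exact hd.mono inter_subset_left inter_subset_left
  · rw [hun]; exact hK1.subset hK2sub
  · rw [hun]; exact hK2
  · intro e he'
    rw [Matroid.contract_ground] at he'
    obtain ⟨he, heF⟩ := he'
    rw [Matroid.contract_closure_eq, Matroid.contract_closure_eq]
    rw [← hcl] at he
    rcases he with he | he
    · left
      refine ⟨M.closure_subset_closure ?_ he, heF⟩
      intro z hz
      by_cases hzF : z ∈ F
      · exact Or.inr hzF
      · by_cases hzK : z ∈ K2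
        · exact Or.inl (Or.inl ⟨hz, hzK⟩)
        · exact Or.inl (Or.inr ⟨⟨Or.inl hz, hzF⟩, hzK⟩)
    · right
      refine ⟨N.closure_subset_closure ?_ he, heF⟩
      intro z hz
      by_cases hzF : z ∈ F
      · exact Or.inr hzF
      · by_cases hzK : z ∈ K2
        · exact Or.inl (Or.inl ⟨hz, hzK⟩)
        · exact Or.inl (Or.inr ⟨⟨Or.inr hz, hzF⟩, hzK⟩)

end Vale.Agent.Lib.P068
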